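import Vale.Agent.Lib.P069.NonAuc

namespace Vale.Agent.Results.P069.A_main

open Vale.Agent.Lib.P069

/-- There is a separable reflexive infinite-dimensional real Banach space whose norm is
asymptotically midpoint uniformly convex (with a modulus of power type two), while no equivalent
norm on it is asymptotically uniformly convex. -/
theorem result :
    ∃ (X : Type) (_ : NormedAddCommGroup X) (_ : NormedSpace ℝ X) (_ : CompleteSpace X),
      TopologicalSpace.SeparableSpace X ∧
      ¬ FiniteDimensional ℝ X ∧
      Function.Surjective (NormedSpace.inclusionInDoubleDual ℝ X) ∧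
      (∀ t : ℝ, 0 < t → 0 < amModulus (fun x : X => ‖x‖) t ∧
        t ^ 2 / (64 + 6 * t ^ 2) ≤ amModulus (fun x : X => ‖x‖) t) ∧
      (∀ N : X → ℝ, IsEquivNorm N → ¬ ∀ t : ℝ, 0 < t → 0 < auModulus N t) := by
  refine ⟨X, inferInstance, inferInstance, inferInstance, separable_X, not_finiteDimensional_X,
    reflexive_X, fun t ht => ?_, no_auc⟩
  have h := amModulus_ge ht
  refine ⟨lt_of_lt_of_le ?_ h, h⟩
  positivity

end Vale.Agent.Results.P069.A_main
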